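import Mathlib

/-!
# Iterated difference operators on sequences (board task POS-ARITH)

EXACT statements to prove (do not change them; the definitions `diffOp`, `iterDiff` are fixed):
`iterDiff_eq_zero_of_invariant`, `iterDiff_sum_mul`, `iterDiff_recover`.

`diffOp d f` is the sequence `i ↦ f i - f (i + d)` and `iterDiff [d₁, ..., dₙ] f` applies
`diffOp d₁`, then `diffOp d₂`, and so on.

Proof sketches.
* `iterDiff_eq_zero_of_invariant`: induction on `ds`, generalizing `f`. If `d0` is the head,
  `diffOp d0 f` is the zero sequence and `iterDiff ds` of the zero sequence is zero (a small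
  lemma by induction). If `d0` is in the tail, `diffOp d f` is again invariant under the shift
  by `d0` (`add_right_comm`).
* `iterDiff_sum_mul`: induction on `ds`, generalizing `c`; `diffOp d` of
  `j ↦ ∑ γ ∈ s, a γ * c γ j` is `j ↦ ∑ γ ∈ s, a γ * diffOp d (c γ) j`
  (`Finset.sum_sub_distrib`, `mul_sub`).
* `iterDiff_recover`: induction on `qs`, generalizing `f`. For `qs = q :: qs'` put
  `f' := diffOp (k / q) f`. Then `f'` satisfies the hypotheses for `qs'` (for `q' ∈ qs'`:
  `∑ j, f' (i + j * (k / q')) = ∑ j, f (i + j * (k / q')) - ∑ j, f (i + k / q + j * (k / q'))`,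
  both sums vanish), so with `P := qs'.prod`: `P • f i = P • f (i + k / q)` for all `i`, hence
  `P • f (i + j * (k / q)) = P • f i` for all `j`. Apply `P •` to
  `∑ j ∈ range q, f (i + j * (k / q)) = 0`: `q • (P • f i) = 0`, which is the claim since `q • (P • x) = (q * P) • x`.
-/

namespace Vale.Agent.H72

/-- The difference operator with step `d`. -/
def diffOp {R : Type*} [AddCommGroup R] (d : ℕ) (f : ℕ → R) : ℕ → R := fun i => f i - f (i + d)

/-- Iterated difference operators, the head of the list being applied first. -/
def iterDiff {R : Type*} [AddCommGroup R] : List ℕ → (ℕ → R) → ℕ → R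
  | [], f => f
  | d :: ds, f => iterDiff ds (diffOp d f)

/-- Iterated differences of the zero sequence vanish. -/
theorem arith_iterDiff_zero {R : Type*} [AddCommGroup R] (ds : List ℕ) (i : ℕ) :
    iterDiff ds (fun _ => (0 : R)) i = 0 := by
  induction ds with
  | nil => rfl
  | cons d ds ih =>
    have h0 : diffOp d (fun _ => (0 : R)) = fun _ => 0 := by
      funext j
      simp [diffOp]
    simp only [iterDiff, h0]
    exact ih

theorem iterDiff_eq_zero_of_invariant {R : Type*} [AddCommGroup R] (ds : List ℕ) (d0 : ℕ)
    (hd0 : d0 ∈ ds) (f : ℕ → R) (hf : ∀ i, f (i + d0) = f i) (i : ℕ) : iterDiff ds f i = 0 := by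
  induction ds generalizing f with
  | nil => simp at hd0
  | cons d ds ih =>
    rcases List.mem_cons.1 hd0 with h | h
    · subst h
      have h0 : diffOp d0 f = fun _ => 0 := by
        funext j
        simp [diffOp, hf]
      simp only [iterDiff, h0]
      exact arith_iterDiff_zero ds i
    · simp only [iterDiff]
      apply ih h
      intro j
      simp only [diffOp]
      rw [add_right_comm j d0 d, hf, hf]

theorem iterDiff_sum_mul {R : Type*} [CommRing R] {ι : Type*} (s : Finset ι) (a : ι → R)
    (c : ι → ℕ → R) (ds : List ℕ) (i : ℕ) :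
    iterDiff ds (fun j => ∑ γ ∈ s, a γ * c γ j) i = ∑ γ ∈ s, a γ * iterDiff ds (c γ) i := by
  induction ds generalizing c with
  | nil => rfl
  | cons d ds ih =>
    simp only [iterDiff]
    have h0 : diffOp d (fun j => ∑ γ ∈ s, a γ * c γ j)
        = fun j => ∑ γ ∈ s, a γ * diffOp d (c γ) j := by
      funext j
      simp only [diffOp, mul_sub, Finset.sum_sub_distrib]
    rw [h0]
    exact ih (fun γ => diffOp d (c γ))

theorem iterDiff_recover {R : Type*} [AddCommGroup R] (k : ℕ) (qs : List ℕ) (f : ℕ → R)
    (hsum : ∀ q ∈ qs, ∀ i, ∑ j ∈ Finset.range q, f (i + j * (k / q)) = 0)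
    (hdiff : ∀ i, iterDiff (qs.map (fun q => k / q)) f i = 0) (i : ℕ) :
    qs.prod • f i = 0 := by
  induction qs generalizing f i with
  | nil => simpa [iterDiff] using hdiff i
  | cons q qs ih =>
    have hsum' : ∀ q' ∈ qs, ∀ i, ∑ j ∈ Finset.range q', diffOp (k / q) f (i + j * (k / q')) = 0 := by
      intro q' hq' i'
      have h1 := hsum q' (List.mem_cons_of_mem q hq') i'
      have h2 := hsum q' (List.mem_cons_of_mem q hq') (i' + k / q)
      simp only [diffOp, Finset.sum_sub_distrib]
      rw [h1]
      have h3 : ∑ j ∈ Finset.range q', f (i' + j * (k / q') + k / q)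
          = ∑ j ∈ Finset.range q', f (i' + k / q + j * (k / q')) := by
        refine Finset.sum_congr rfl (fun j _ => ?_)
        rw [add_right_comm]
      rw [h3, h2, sub_zero]
    have hdiff' : ∀ i, iterDiff (qs.map (fun q => k / q)) (diffOp (k / q) f) i = 0 := by
      intro i'
      have := hdiff i'
      simpa only [List.map_cons, iterDiff] using this
    have hP : ∀ i, qs.prod • f i = qs.prod • f (i + k / q) := by
      intro i'
      have := ih (diffOp (k / q) f) hsum' hdiff' i'
      simp only [diffOp, smul_sub] at this
      exact sub_eq_zero.1 this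
    have hPj : ∀ j : ℕ, qs.prod • f (i + j * (k / q)) = qs.prod • f i := by
      intro j
      induction j with
      | zero => simp
      | succ j ihj =>
        rw [Nat.succ_mul, ← add_assoc, ← hP, ihj]
    have h0 := hsum q List.mem_cons_self i
    have h1 : ∑ j ∈ Finset.range q, qs.prod • f (i + j * (k / q)) = 0 := by
      rw [← Finset.smul_sum, h0, smul_zero]
    rw [Finset.sum_congr rfl (fun j _ => hPj j), Finset.sum_const, Finset.card_range] at h1
    rw [List.prod_cons, mul_smul]
    exact h1

end Vale.Agent.H72
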