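import Vale.Agent.H72.Pos.Defs

/-!
# The block automaton counts the blocks different from `g` (board task POS-AUTO)

EXACT statement to prove (do not change it): `blockAuto_visits`.

Definitions (file Defs): `blockStep k g` is the block automaton, `blockCount k g w` the number
of aligned blocks of length `k` of `w` equal to `g 0, ..., g (k - 1)`, and
`visits δ s₀ G w` (file `Vale/Agent/H88/SF/Defs.lean`) is the number of initial segments of `w`
(including `w`, and the empty one if `s₀ = G`) leading from `s₀` to `G`; use
`visits_nil` and `visits_snoc` (file `Vale/Agent/H88/SF/CoreB.lean`). Checked by simulation.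

Proof sketch. Induction on `w` from the right (`List.reverseRecOn`) with the invariant: for
`n := w.length` and `s := w.foldl (blockStep k g) (some (0, true))`,
* if `k ∣ n`, `0 < n` and the last block of `w` differs from `g`
  (not `∀ i < k, w[n - k + i]? = some (g i)`), then `s = none`;
* otherwise `s = some ((n : ZMod k), f)` where `f = true` if and only if the letters of the
  incomplete last block agree with `g` (`∀ i < n % k, w[k * (n / k) + i]? = some (g i)`;
  this holds trivially when `k ∣ n`).
Reading one more letter `y`: the clock `c` of the state is `(n : ZMod k)`, `c.val = n % k`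
(`ZMod.val_natCast`), and `c + 1 = 0` if and only if `k ∣ n + 1`
(`ZMod.natCast_eq_zero_iff`, after `Nat.cast_succ`). The gate is entered exactly when a block
is completed and differs from `g`; `blockCount` increases by one exactly when a block is
completed and equals `g`; `(n + 1) / k = n / k + 1` if `k ∣ n + 1` and `n / k` otherwise
(`Nat.succ_div`).
-/

namespace Vale.Agent.H72

open Vale.Agent.H88 Language

variable {β : Type} [DecidableEq β]

/-- The clock read off a state of the block automaton (the gate counts as clock `0`). -/
def posauto_clk {k : ℕ} : Option (ZMod k × Bool) → ZMod k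
  | none => 0
  | some p => p.1

/-- The effective flag of a state of the block automaton. -/
def posauto_flg {k : ℕ} : Option (ZMod k × Bool) → Bool
  | none => true
  | some p => decide (p.1 = 0) || p.2

theorem posauto_step (k : ℕ) (g : ℕ → β) (s : Option (ZMod k × Bool)) (y : β) :
    blockStep k g s y =
      if posauto_clk s + 1 = 0 then
        (if (posauto_flg s && decide (y = g (posauto_clk s).val)) then some (0, true) else none)
      else some (posauto_clk s + 1, posauto_flg s && decide (y = g (posauto_clk s).val)) := by
  cases s <;> rfl

theorem posauto_arith_dvd {k : ℕ} (hk : 0 < k) (n : ℕ) (hd : k ∣ n + 1) :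
    (n + 1) / k = n / k + 1 ∧ n % k = k - 1 ∧ (n + 1) % k = 0 ∧ k ≤ n + 1 ∧
      n / k * k = n + 1 - k := by
  have hdiv : (n + 1) / k = n / k + 1 := by
    rw [Nat.succ_div]; simp [hd]
  have h1 := Nat.div_add_mod n k
  have h1' := Nat.div_add_mod' n k
  have h2 := Nat.div_add_mod (n + 1) k
  rw [hdiv, Nat.mul_succ] at h2
  have h3 := Nat.mod_lt n hk
  have h4 := Nat.le_of_dvd (Nat.succ_pos n) hd
  refine ⟨hdiv, by omega, by omega, h4, by omega⟩

theorem posauto_arith_ndvd {k : ℕ} (n : ℕ) (hd : ¬ k ∣ n + 1) :
    (n + 1) / k = n / k ∧ (n + 1) % k = n % k + 1 := by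
  have hdiv : (n + 1) / k = n / k := by
    rw [Nat.succ_div]; simp [hd]
  have h1 := Nat.div_add_mod n k
  have h2 := Nat.div_add_mod (n + 1) k
  rw [hdiv] at h2
  exact ⟨hdiv, by omega⟩

/-- Completing a block: the last block of `w ++ [y]` equals `g` iff the incomplete last block
of `w` agrees with `g` and `y` is the right letter. -/
theorem posauto_last_snoc {k : ℕ} (hk : 0 < k) (g : ℕ → β) (w : List β) (y : β)
    (hd : k ∣ w.length + 1) :
    (∀ i < k, (w ++ [y])[w.length + 1 - k + i]? = some (g i)) ↔
      ((∀ i < w.length % k, w[w.length - w.length % k + i]? = some (g i)) ∧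
        y = g (w.length % k)) := by
  obtain ⟨-, hmod, -, hle, -⟩ := posauto_arith_dvd hk w.length hd
  have hml := Nat.mod_le w.length k
  constructor
  · intro h
    refine ⟨fun i hi => ?_, ?_⟩
    · have h' := h i (by omega)
      rw [List.getElem?_append_left (by omega)] at h'
      have hidx : w.length - w.length % k + i = w.length + 1 - k + i := by omega
      rw [hidx]; exact h'
    · have h' := h (k - 1) (by omega)
      have hidx : w.length + 1 - k + (k - 1) = w.length := by omega
      rw [hidx, List.getElem?_concat_length] at h'
      rw [hmod]
      exact Option.some.inj h'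
  · rintro ⟨hP, hy⟩ i hi
    by_cases hi' : i < k - 1
    · rw [List.getElem?_append_left (by omega)]
      have hidx : w.length + 1 - k + i = w.length - w.length % k + i := by omega
      rw [hidx]
      exact hP i (by omega)
    · have hik : i = k - 1 := by omega
      have hidx : w.length + 1 - k + i = w.length := by omega
      rw [hidx, List.getElem?_concat_length, hy, hmod, hik]

/-- Not completing a block: the incomplete last block of `w ++ [y]` agrees with `g` iff the one
of `w` does and `y` is the right letter. -/
theorem posauto_part_snoc {k : ℕ} (g : ℕ → β) (w : List β) (y : β)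
    (hd : ¬ k ∣ w.length + 1) :
    (∀ i < (w.length + 1) % k,
        (w ++ [y])[w.length + 1 - (w.length + 1) % k + i]? = some (g i)) ↔
      ((∀ i < w.length % k, w[w.length - w.length % k + i]? = some (g i)) ∧
        y = g (w.length % k)) := by
  obtain ⟨-, hmod⟩ := posauto_arith_ndvd w.length hd
  have hml := Nat.mod_le w.length k
  rw [hmod]
  constructor
  · intro h
    refine ⟨fun i hi => ?_, ?_⟩
    · have h' := h i (by omega)
      rw [List.getElem?_append_left (by omega)] at h'
      have hidx : w.length - w.length % k + i = w.length + 1 - (w.length % k + 1) + i := by omega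
      rw [hidx]; exact h'
    · have h' := h (w.length % k) (by omega)
      have hidx : w.length + 1 - (w.length % k + 1) + w.length % k = w.length := by omega
      rw [hidx, List.getElem?_concat_length] at h'
      exact Option.some.inj h'
  · rintro ⟨hP, hy⟩ i hi
    by_cases hi' : i < w.length % k
    · rw [List.getElem?_append_left (by omega)]
      have hidx : w.length + 1 - (w.length % k + 1) + i = w.length - w.length % k + i := by omega
      rw [hidx]
      exact hP i hi'
    · have hik : i = w.length % k := by omega
      have hidx : w.length + 1 - (w.length % k + 1) + i = w.length := by omega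
      rw [hidx, List.getElem?_concat_length, hy, hik]

/-- The complete blocks of `w` are not changed by appending a letter. -/
theorem posauto_filter_congr (k : ℕ) (g : ℕ → β) (w : List β) (y : β) :
    (Finset.range (w.length / k)).filter
        (fun j => ∀ i < k, (w ++ [y])[j * k + i]? = some (g i)) =
      (Finset.range (w.length / k)).filter (fun j => ∀ i < k, w[j * k + i]? = some (g i)) := by
  apply Finset.filter_congr
  intro j hj
  have hj' : j + 1 ≤ w.length / k := Finset.mem_range.1 hj
  have h1 : (j + 1) * k ≤ w.length / k * k := Nat.mul_le_mul_right k hj'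
  have h2 : w.length / k * k ≤ w.length := Nat.div_mul_le_self w.length k
  have h3 : (j + 1) * k = j * k + k := Nat.succ_mul j k
  constructor
  · intro h i hi
    have := h i hi
    rwa [List.getElem?_append_left (by omega)] at this
  · intro h i hi
    rw [List.getElem?_append_left (by omega)]
    exact h i hi

theorem posauto_count_snoc_dvd {k : ℕ} (hk : 0 < k) (g : ℕ → β) (w : List β) (y : β)
    (hd : k ∣ w.length + 1) :
    blockCount k g (w ++ [y]) = blockCount k g w +
      if (∀ i < k, (w ++ [y])[w.length + 1 - k + i]? = some (g i)) then 1 else 0 := by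
  obtain ⟨hdiv, -, -, -, hbase⟩ := posauto_arith_dvd hk w.length hd
  unfold blockCount
  have hlen : (w ++ [y]).length = w.length + 1 := by simp
  have hiff : (∀ i < k, (w ++ [y])[w.length / k * k + i]? = some (g i)) ↔
      (∀ i < k, (w ++ [y])[w.length + 1 - k + i]? = some (g i)) := by
    rw [hbase]
  rw [hlen, hdiv, Finset.range_add_one, Finset.filter_insert, posauto_filter_congr]
  by_cases hc : ∀ i < k, (w ++ [y])[w.length + 1 - k + i]? = some (g i)
  · rw [if_pos (hiff.2 hc), if_pos hc, Finset.card_insert_of_notMem]
    simp
  · rw [if_neg (fun h => hc (hiff.1 h)), if_neg hc]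
    rfl

theorem posauto_count_snoc_ndvd {k : ℕ} (g : ℕ → β) (w : List β) (y : β)
    (hd : ¬ k ∣ w.length + 1) :
    blockCount k g (w ++ [y]) = blockCount k g w := by
  obtain ⟨hdiv, -⟩ := posauto_arith_ndvd w.length hd
  unfold blockCount
  have hlen : (w ++ [y]).length = w.length + 1 := by simp
  rw [hlen, hdiv, posauto_filter_congr]

/-- The invariant of the block automaton. -/
theorem posauto_inv {k : ℕ} (hk : 0 < k) (g : ℕ → β) (w : List β) :
    posauto_clk (w.foldl (blockStep k g) (some (0, true))) = (w.length : ZMod k) ∧
    (posauto_flg (w.foldl (blockStep k g) (some (0, true))) = true ↔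
      ∀ i < w.length % k, w[w.length - w.length % k + i]? = some (g i)) ∧
    (w.foldl (blockStep k g) (some (0, true)) = none ↔
      (k ∣ w.length ∧ 0 < w.length ∧ ¬ ∀ i < k, w[w.length - k + i]? = some (g i))) ∧
    visits (blockStep k g) (some (0, true)) none w + blockCount k g w = w.length / k := by
  induction w using List.reverseRecOn with
  | nil =>
    refine ⟨by simp [posauto_clk], by simp [posauto_flg], by simp, ?_⟩
    rw [visits_nil]
    simp [blockCount]
  | append_singleton w y ih =>
    obtain ⟨ih1, ih2, ih3, ih4⟩ := ih
    have hfold : (w ++ [y]).foldl (blockStep k g) (some (0, true)) =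
        blockStep k g (w.foldl (blockStep k g) (some (0, true))) y := by
      simp [List.foldl_append]
    have hlen : (w ++ [y]).length = w.length + 1 := by simp
    set s := w.foldl (blockStep k g) (some (0, true)) with hs
    have hval : (posauto_clk s).val = w.length % k := by
      rw [ih1, ZMod.val_natCast]
    have hcz : posauto_clk s + 1 = 0 ↔ k ∣ w.length + 1 := by
      rw [ih1]
      have : ((w.length : ZMod k) + 1) = ((w.length + 1 : ℕ) : ZMod k) := by push_cast; rfl
      rw [this, ZMod.natCast_eq_zero_iff]
    have hf' : (posauto_flg s && decide (y = g (posauto_clk s).val)) = true ↔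
        ((∀ i < w.length % k, w[w.length - w.length % k + i]? = some (g i)) ∧
          y = g (w.length % k)) := by
      rw [Bool.and_eq_true, ih2, hval, decide_eq_true_iff]
    rw [visits_snoc, hfold, posauto_step, hlen]
    by_cases hd : k ∣ w.length + 1
    · -- a block is completed
      obtain ⟨hdiv, hmod, hmod', hle, -⟩ := posauto_arith_dvd hk w.length hd
      have hlast := posauto_last_snoc hk g w y hd
      rw [if_pos (hcz.2 hd), posauto_count_snoc_dvd hk g w y hd, hdiv, hmod']
      by_cases hb : (posauto_flg s && decide (y = g (posauto_clk s).val)) = true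
      · have hL : ∀ i < k, (w ++ [y])[w.length + 1 - k + i]? = some (g i) :=
          hlast.2 (hf'.1 hb)
        rw [if_pos hb, if_pos hL]
        refine ⟨?_, ?_, ?_, ?_⟩
        · have : ((w.length + 1 : ℕ) : ZMod k) = 0 := (ZMod.natCast_eq_zero_iff _ _).2 hd
          simp [posauto_clk, this]
        · simp [posauto_flg]
        · constructor
          · intro h; exact absurd h (by simp)
          · rintro ⟨-, -, h⟩; exact absurd hL h
        · rw [if_neg (by simp)]
          omega
      · have hL : ¬ ∀ i < k, (w ++ [y])[w.length + 1 - k + i]? = some (g i) :=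
          fun h => hb (hf'.2 (hlast.1 h))
        rw [if_neg hb, if_neg hL]
        refine ⟨?_, ?_, ?_, ?_⟩
        · have : ((w.length + 1 : ℕ) : ZMod k) = 0 := (ZMod.natCast_eq_zero_iff _ _).2 hd
          simp [posauto_clk, this]
        · simp [posauto_flg]
        · constructor
          · intro _; exact ⟨hd, Nat.succ_pos _, hL⟩
          · intro _; rfl
        · rw [if_pos rfl]
          omega
    · -- no block is completed
      obtain ⟨hdiv, hmod'⟩ := posauto_arith_ndvd w.length hd
      have hpart := posauto_part_snoc g w y hd
      have hne : ¬ posauto_clk s + 1 = 0 := fun h => hd (hcz.1 h)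
      rw [if_neg hne, posauto_count_snoc_ndvd g w y hd, hdiv]
      refine ⟨?_, ?_, ?_, ?_⟩
      · show posauto_clk s + 1 = ((w.length + 1 : ℕ) : ZMod k)
        rw [ih1]; push_cast; rfl
      · show (decide (posauto_clk s + 1 = 0) || (posauto_flg s &&
            decide (y = g (posauto_clk s).val))) = true ↔ _
        rw [decide_eq_false hne, Bool.false_or, hf']
        exact hpart.symm
      · constructor
        · intro h; exact absurd h (by simp)
        · rintro ⟨h, -, -⟩; exact absurd h hd
      · rw [if_neg (by simp)]
        omega

theorem blockAuto_visits {k : ℕ} (hk : 0 < k) (g : ℕ → β) (w : List β) :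
    visits (blockStep k g) (some (0, true)) none w + blockCount k g w = w.length / k :=
  (posauto_inv hk g w).2.2.2

end Vale.Agent.H72
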