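import Vale.Agent.H72.Pos.Defs

/-!
# The block automaton of a primitive word is counter-free off its gate (board task POS-CF)

EXACT statement to prove (do not change it): `blockStep_counterFree`.

Definitions (file Defs): `blockStep k g` (states `none` = gate and `some (c, f)`),
`PrimBlock k g`. `CounterFree` and `sinkStep` are in `Vale/Agent/H88/SF/Defs.lean` and
`Vale/Agent/H88/ReturnCode.lean`. Checked by computer for `k ≤ 5` over two letters (the sink
automaton is counter-free exactly when the word is primitive).

Proof sketch. Apply `counterFree_sinkStep_of_seq` (file `Vale/Agent/H88/SF/SinkSeq.lean`): let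
`S : ℕ → Option (ZMod k × Bool)` be a run of `blockStep k g` reading `W : ℕ → β`, where `W`
has period `L > 0`, `S` never takes the value `none` and `S (i + N * L) = S i`; show
`S L = S 0`. Write `S i = some (c i, f i)`.
1. `c (i + 1) = c i + 1`, hence `c (i + j) = c i + j`.
2. If `c i = 0` then for every `j < k`:
   `S (i + j) = some (j, true)` or `j = 0`, and `W (i + j) = g j`; and `S (i + k) = some (0, true)`
   (induction on `j`: the flag computed at the step from time `i + j` is
   `decide (∀ t ≤ j, W (i + t) = g t)`; at the last step of the block the automaton would move to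
   `none` if the flag were `false`, which is excluded; so all letters of the block agree with `g`).
3. Let `t₀ := (k - (c 0).val) % k`, so `c t₀ = 0`. By 2 and induction, `c (t₀ + j * k) = 0` for
   all `j` and `W (t₀ + n) = g (n % k)` for all `n`; moreover `S i = some (c i, true)` for every
   `i > t₀` (and also for `i = t₀` when `t₀ > 0`).
4. `W` has period `L`, so `g ((n + L) % k) = W (t₀ + n + L) = W (t₀ + n) = g (n % k)` for all
   `n`; by `PrimBlock k g`, `k ∣ L`.
5. Hence `c L = c 0` and `c (N * L) = c 0`. Take `j ≥ 1` with `j * N * L > t₀`: then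
   `S 0 = S (j * N * L) = some (c 0, true)`; and `S L = S (L + j * N * L) = some (c 0, true)`
   because `L + j * N * L > t₀`. So `S L = S 0`.
-/

namespace Vale.Agent.H72

open Vale.Agent.H88 Language

variable {β : Type} [DecidableEq β]

/-- One step of the block automaton from a state different from the gate. -/
theorem poscf_step_some (k : ℕ) (g : ℕ → β) (q : ZMod k × Bool) (y : β) :
    blockStep k g (some q) y =
      if q.1 + 1 = 0 then
        (if ((decide (q.1 = 0) || q.2) && decide (y = g q.1.val)) = true then some (0, true)
          else none)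
      else some (q.1 + 1, (decide (q.1 = 0) || q.2) && decide (y = g q.1.val)) := rfl

theorem blockStep_counterFree {k : ℕ} (hk : 0 < k) (g : ℕ → β) (hg : PrimBlock k g) :
    CounterFree (sinkStep (blockStep k g) none) := by
  have : NeZero k := ⟨Nat.pos_iff_ne_zero.mp hk⟩
  apply counterFree_sinkStep_of_seq
  intro L N W S hL hN hW hS hne hper
  choose p hp using fun i => Option.ne_none_iff_exists'.mp (hne i)
  -- the step relation on the states `p i`
  have hstep : ∀ i, some (p (i + 1)) =
      if (p i).1 + 1 = 0 then
        (if ((decide ((p i).1 = 0) || (p i).2) && decide (W i = g (p i).1.val)) = true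
          then some (0, true) else none)
      else some ((p i).1 + 1,
        (decide ((p i).1 = 0) || (p i).2) && decide (W i = g (p i).1.val)) := by
    intro i
    rw [← hp (i + 1), hS i, hp i, poscf_step_some]
  -- a step that completes a block
  have hend : ∀ i, (p i).1 + 1 = 0 →
      ((decide ((p i).1 = 0) || (p i).2) && decide (W i = g (p i).1.val)) = true ∧
        p (i + 1) = (0, true) := by
    intro i h0
    have h := hstep i
    rw [if_pos h0] at h
    by_cases hf : ((decide ((p i).1 = 0) || (p i).2) && decide (W i = g (p i).1.val)) = true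
    · rw [if_pos hf] at h
      exact ⟨hf, Option.some.inj h⟩
    · rw [if_neg hf] at h
      exact absurd h (by simp)
  -- a step inside a block
  have hmid : ∀ i, (p i).1 + 1 ≠ 0 →
      p (i + 1) = ((p i).1 + 1,
        (decide ((p i).1 = 0) || (p i).2) && decide (W i = g (p i).1.val)) := by
    intro i h0
    have h := hstep i
    rw [if_neg h0] at h
    exact Option.some.inj h
  -- the counter advances by one
  have hc1 : ∀ i, (p (i + 1)).1 = (p i).1 + 1 := by
    intro i
    by_cases h0 : (p i).1 + 1 = 0
    · rw [(hend i h0).2]
      exact h0.symm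
    · rw [hmid i h0]
  -- all computed flags are true: backward induction from the end of the block
  have hback : ∀ m i, (p i).1 + ((m + 1 : ℕ) : ZMod k) = 0 →
      ((decide ((p i).1 = 0) || (p i).2) && decide (W i = g (p i).1.val)) = true := by
    intro m
    induction m with
    | zero =>
      intro i h
      have h' : (p i).1 + 1 = 0 := by simpa using h
      exact (hend i h').1
    | succ m ih =>
      intro i h
      by_cases h0 : (p i).1 + 1 = 0
      · exact (hend i h0).1
      · have h1 : (p (i + 1)).1 + ((m + 1 : ℕ) : ZMod k) = 0 := by
          rw [hc1 i, ← h]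
          push_cast
          ring
        have h2 := ih (i + 1) h1
        simp only [Bool.and_eq_true, Bool.or_eq_true, decide_eq_true_eq] at h2
        have h3 := hmid i h0
        have h4 : (p (i + 1)).2 = true := by
          rcases h2.1 with h5 | h5
          · exact absurd ((hc1 i).symm.trans h5) h0
          · exact h5
        rw [h3] at h4
        exact h4
  have hall : ∀ i,
      ((decide ((p i).1 = 0) || (p i).2) && decide (W i = g (p i).1.val)) = true := by
    intro i
    have hv : (p i).1.val < k := ZMod.val_lt _
    apply hback (k - (p i).1.val - 1) i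
    have e1 : k - (p i).1.val - 1 + 1 = k - (p i).1.val := by omega
    rw [e1, Nat.cast_sub (le_of_lt hv), ZMod.natCast_self, ZMod.natCast_zmod_val]
    ring
  have hflag : ∀ i, (p (i + 1)).2 = true := by
    intro i
    by_cases h0 : (p i).1 + 1 = 0
    · rw [(hend i h0).2]
    · rw [hmid i h0]
      exact hall i
  have hW' : ∀ i, W i = g (p i).1.val := by
    intro i
    have h := hall i
    simp only [Bool.and_eq_true, decide_eq_true_eq] at h
    exact h.2
  have hcast : ∀ i, (p i).1 = (((p 0).1.val + i : ℕ) : ZMod k) := by
    intro i
    induction i with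
    | zero => rw [Nat.add_zero, ZMod.natCast_zmod_val]
    | succ i ih =>
      rw [hc1 i, ih]
      push_cast
      ring
  have hval : ∀ i, (p i).1.val = ((p 0).1.val + i) % k := by
    intro i
    have h := congrArg ZMod.val (hcast i)
    rw [ZMod.val_natCast] at h
    exact h
  have hWg : ∀ i, W i = g (((p 0).1.val + i) % k) := by
    intro i
    rw [hW' i, hval i]
  have hprim : ∀ i : ℕ, g ((i + L) % k) = g (i % k) := by
    intro i
    have e1 : (k - 1) * (p 0).1.val + (p 0).1.val = k * (p 0).1.val := by
      have e0 : k - 1 + 1 = k := Nat.sub_add_cancel hk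
      calc (k - 1) * (p 0).1.val + (p 0).1.val = (k - 1 + 1) * (p 0).1.val := by ring
        _ = k * (p 0).1.val := by rw [e0]
    have h1 := hWg (i + (k - 1) * (p 0).1.val + L)
    have h2 := hWg (i + (k - 1) * (p 0).1.val)
    have h3 := hW (i + (k - 1) * (p 0).1.val)
    have a1 : ((p 0).1.val + (i + (k - 1) * (p 0).1.val + L)) % k = (i + L) % k := by
      have e2 : (p 0).1.val + (i + (k - 1) * (p 0).1.val + L) = i + L + k * (p 0).1.val := by
        rw [← e1]
        ring
      rw [e2, Nat.add_mul_mod_self_left]
    have a2 : ((p 0).1.val + (i + (k - 1) * (p 0).1.val)) % k = i % k := by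
      have e2 : (p 0).1.val + (i + (k - 1) * (p 0).1.val) = i + k * (p 0).1.val := by
        rw [← e1]
        ring
      rw [e2, Nat.add_mul_mod_self_left]
    rw [a1] at h1
    rw [a2] at h2
    rw [← h1, ← h2, h3]
  have hd : k ∣ L := hg L hprim
  have hL1 : (p L).2 = true := by
    obtain ⟨L', rfl⟩ := Nat.exists_eq_succ_of_ne_zero (Nat.pos_iff_ne_zero.mp hL)
    exact hflag L'
  have hp0 : p (N * L) = p 0 := by
    have h := hper 0
    rw [Nat.zero_add, hp (N * L), hp 0] at h
    exact Option.some.inj h
  have h02 : (p 0).2 = true := by
    rw [← hp0]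
    obtain ⟨M, hM⟩ := Nat.exists_eq_succ_of_ne_zero (Nat.pos_iff_ne_zero.mp (Nat.mul_pos hN hL))
    rw [hM]
    exact hflag M
  have h1 : (p L).1 = (p 0).1 := by
    rw [hcast L, Nat.cast_add, (ZMod.natCast_eq_zero_iff L k).2 hd, add_zero,
      ZMod.natCast_zmod_val]
  rw [hp L, hp 0]
  exact congrArg some (Prod.ext h1 (hL1.trans h02.symm))

end Vale.Agent.H72
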