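import Vale.Agent.H72.Pos.Defs

/-!
# Positional counts from block counts (board task POS-BLOCKS)

For a word `w` whose length is a multiple of `k`, the number of positions `i ≡ r (mod k)`
carrying `x` is the sum, over all words `γ` of length `k` whose letter at index `r % k` is `x`,
of the number of aligned blocks of `w` equal to `γ`. Definitions in file Defs:
`posCount`, `blockCount`, `blockFn hk γ i = γ ⟨i % k, _⟩`.

Proof. With `B := w.length / k` (so `w.length = B * k`):
1. `blocks_pos_eq`: `posCount x k r w` is the number of `j < B` with `w[j * k + r % k]? = some x`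
   (the map `j ↦ j * k + r % k` is a bijection between the two index sets).
2. For `j < B` let `γ_j : Fin k → β` be the `j`-th block. For every `γ`:
   the block condition `∀ i < k, w[j * k + i]? = some (blockFn hk γ i)` holds iff `γ = γ_j`.
3. Write `blockCount` as a sum of indicators, exchange the two sums, and evaluate the inner sum
   over `γ` at its only nonzero term `γ = γ_j`.
-/

namespace Vale.Agent.H72

variable {β : Type} [DecidableEq β]

omit [DecidableEq β] in
theorem blocks_lt {k : ℕ} (w : List β) (hw : k ∣ w.length) {j i : ℕ}
    (hj : j < w.length / k) (hi : i < k) : j * k + i < w.length := by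
  have h1 : w.length / k * k = w.length := Nat.div_mul_cancel hw
  have h2 : (j + 1) * k ≤ w.length / k * k := Nat.mul_le_mul_right k hj
  have h3 : (j + 1) * k = j * k + k := by ring
  omega

theorem blocks_pos_eq {k : ℕ} (hk : 0 < k) (x : β) (r : ℕ) (w : List β) (hw : k ∣ w.length) :
    posCount x k r w =
      ((Finset.range (w.length / k)).filter (fun j => w[j * k + r % k]? = some x)).card := by
  unfold posCount
  symm
  apply Finset.card_bij (fun j _ => j * k + r % k)
  · intro j hj
    rw [Finset.mem_filter, Finset.mem_range] at hj
    rw [Finset.mem_filter, Finset.mem_range]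
    refine ⟨blocks_lt w hw hj.1 (Nat.mod_lt r hk), hj.2, ?_⟩
    show (j * k + r % k) % k = r % k
    rw [Nat.mul_add_mod', Nat.mod_mod]
  · intro j1 _ j2 _ h
    exact Nat.eq_of_mul_eq_mul_right hk (Nat.add_right_cancel h)
  · intro i hi
    rw [Finset.mem_filter, Finset.mem_range] at hi
    obtain ⟨hil, hix, himod⟩ := hi
    have himod' : i % k = r % k := himod
    have hdecomp : i / k * k + r % k = i := by
      rw [← himod']
      exact Nat.div_add_mod' i k
    refine ⟨i / k, ?_, hdecomp⟩
    rw [Finset.mem_filter, Finset.mem_range]
    refine ⟨?_, ?_⟩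
    · apply Nat.div_lt_of_lt_mul
      rw [Nat.mul_div_cancel' hw]
      exact hil
    · rw [hdecomp]
      exact hix

theorem posCount_blocks [Fintype β] {k : ℕ} (hk : 0 < k) (x : β) (r : ℕ) (w : List β)
    (hw : k ∣ w.length) :
    posCount x k r w =
      ∑ γ : Fin k → β, (if blockFn hk γ r = x then 1 else 0) * blockCount k (blockFn hk γ) w := by
  rw [blocks_pos_eq hk x r w hw]
  obtain ⟨γj, hγj⟩ : ∃ γj : ℕ → Fin k → β,
      ∀ j i, γj j i = (w[j * k + i.val]?).getD x := ⟨fun j i => (w[j * k + i.val]?).getD x,
        fun _ _ => rfl⟩
  have hget : ∀ j, j < w.length / k → ∀ i, i < k →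
      w[j * k + i]? = some ((w[j * k + i]?).getD x) := by
    intro j hj i hi
    have hlt := blocks_lt w hw hj hi
    rw [List.getElem?_eq_getElem hlt]
    rfl
  have hfn : ∀ j i, i < k → blockFn hk (γj j) i = (w[j * k + i]?).getD x := by
    intro j i hi
    show γj j ⟨i % k, Nat.mod_lt i hk⟩ = _
    rw [hγj]
    show (w[j * k + i % k]?).getD x = _
    rw [Nat.mod_eq_of_lt hi]
  have hiff : ∀ j, j < w.length / k → ∀ γ : Fin k → β,
      (∀ i < k, w[j * k + i]? = some (blockFn hk γ i)) ↔ γ = γj j := by
    intro j hj γ
    constructor
    · intro h
      funext i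
      have h1 := h i.val i.isLt
      have h2 : blockFn hk γ i.val = γ i := by
        show γ ⟨i.val % k, Nat.mod_lt i.val hk⟩ = γ i
        congr 1
        exact Fin.ext (Nat.mod_eq_of_lt i.isLt)
      rw [h2] at h1
      rw [hγj, h1]
      rfl
    · intro h i hi
      subst h
      rw [hfn j i hi]
      exact hget j hj i hi
  have hbc : ∀ γ : Fin k → β, blockCount k (blockFn hk γ) w =
      ∑ j ∈ Finset.range (w.length / k), if γ = γj j then 1 else 0 := by
    intro γ
    unfold blockCount
    rw [Finset.card_filter]
    apply Finset.sum_congr rfl
    intro j hj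
    have hj' := Finset.mem_range.1 hj
    by_cases hc : γ = γj j
    · rw [if_pos hc, if_pos ((hiff j hj' γ).2 hc)]
    · rw [if_neg hc, if_neg (fun h => hc ((hiff j hj' γ).1 h))]
  have hrhs : (∑ γ : Fin k → β,
        (if blockFn hk γ r = x then 1 else 0) * blockCount k (blockFn hk γ) w) =
      ∑ j ∈ Finset.range (w.length / k), if w[j * k + r % k]? = some x then 1 else 0 := by
    calc (∑ γ : Fin k → β,
          (if blockFn hk γ r = x then 1 else 0) * blockCount k (blockFn hk γ) w)
        = ∑ γ : Fin k → β, ∑ j ∈ Finset.range (w.length / k),
            (if blockFn hk γ r = x then 1 else 0) * (if γ = γj j then 1 else 0) := by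
          apply Finset.sum_congr rfl
          intro γ _
          rw [hbc γ, Finset.mul_sum]
      _ = ∑ j ∈ Finset.range (w.length / k), ∑ γ : Fin k → β,
            (if blockFn hk γ r = x then 1 else 0) * (if γ = γj j then 1 else 0) :=
          Finset.sum_comm
      _ = ∑ j ∈ Finset.range (w.length / k),
            if w[j * k + r % k]? = some x then 1 else 0 := by
          apply Finset.sum_congr rfl
          intro j hj
          have hj' := Finset.mem_range.1 hj
          have h3 : blockFn hk (γj j) r = (w[j * k + r % k]?).getD x := by
            show γj j ⟨r % k, Nat.mod_lt r hk⟩ = _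
            rw [hγj]
          have h4 := hget j hj' (r % k) (Nat.mod_lt r hk)
          rw [Finset.sum_eq_single (γj j)]
          · rw [if_pos (rfl : γj j = γj j), Nat.mul_one]
            by_cases hc : w[j * k + r % k]? = some x
            · have hb : blockFn hk (γj j) r = x := by
                rw [h3, hc]
                rfl
              rw [if_pos hc, if_pos hb]
            · have hb : ¬ blockFn hk (γj j) r = x := by
                intro hx
                apply hc
                rw [h4, ← h3, hx]
              rw [if_neg hc, if_neg hb]
          · intro γ _ hne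
            rw [if_neg hne, Nat.mul_zero]
          · intro hnot
            exact absurd (Finset.mem_univ _) hnot
  rw [hrhs, Finset.card_filter]

end Vale.Agent.H72
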