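import Vale.Agent.H72.Pos.Defs

/-!
# Refining the modulus of positional counting (board task POS-COARSE)

EXACT statement to prove (do not change it): `posCount_coarse`.

`posCount x k r w` (file Defs) is the number of positions `i ≡ r (mod k)` of `w` carrying `x`.
The positions `i ≡ r (mod d)` are the disjoint union over `j < q` of the positions
`i ≡ r + j * d (mod q * d)`. Checked numerically.

Proof. Induction on `w` from the right with `posCount_snoc` (file Defs): it suffices
that for every `n` (the length of the word read so far)
the indicator of `n ≡ r [MOD d]` equals the sum over `j < q` of the indicators of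
`n ≡ r + j * d [MOD q * d]` (lemma `posCoarse_arith`). If `n ≡ r [MOD d]` fails no summand is `1` (`Nat.ModEq.of_mul_left`). If it
holds, write `r - n = d * t` in the integers; then `n ≡ r + j * d [MOD q * d]` iff `q ∣ t + j`
iff `j = (-t) % q` (for `j < q`), so exactly one summand is `1`.
-/

namespace Vale.Agent.H72

variable {β : Type} [DecidableEq β]

theorem posCoarse_arith (d q r n : ℕ) (hd : 0 < d) (hq : 0 < q) :
    (if n ≡ r [MOD d] then 1 else 0) =
      ∑ j ∈ Finset.range q, if n ≡ r + j * d [MOD q * d] then 1 else 0 := by
  have hqz : (q : ℤ) ≠ 0 := by exact_mod_cast hq.ne'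
  have hdz : (d : ℤ) ≠ 0 := by exact_mod_cast hd.ne'
  by_cases h : n ≡ r [MOD d]
  · rw [if_pos h]
    obtain ⟨t, ht⟩ := (Nat.modEq_iff_dvd).1 h
    have hnn : 0 ≤ (-t) % (q : ℤ) := Int.emod_nonneg _ hqz
    have hlt : (-t) % (q : ℤ) < q := Int.emod_lt_of_pos _ (by exact_mod_cast hq)
    have key : ∀ j : ℕ, j < q →
        (n ≡ r + j * d [MOD q * d] ↔ j = ((-t) % (q : ℤ)).toNat) := by
      intro j hj
      rw [Nat.modEq_iff_dvd]
      have e1 : (((r + j * d : ℕ) : ℤ)) - n = (d : ℤ) * (t + j) := by
        push_cast
        linarith
      rw [e1]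
      have e2 : ((q * d : ℕ) : ℤ) = (d : ℤ) * q := by
        push_cast
        ring
      rw [e2, mul_dvd_mul_iff_left hdz]
      constructor
      · intro hdiv
        have h1 : (j : ℤ) % q = (-t) % q := by
          apply (Int.modEq_iff_dvd).2
          have e3 : -t - (j : ℤ) = -(t + j) := by ring
          rw [e3]
          exact (dvd_neg).2 hdiv
        have h2 : (j : ℤ) % q = j :=
          Int.emod_eq_of_lt (by positivity) (by exact_mod_cast hj)
        have h3 : (j : ℤ) = (-t) % q := by rw [← h2, h1]
        omega
      · intro hj0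
        have h3 : (j : ℤ) = (-t) % q := by omega
        have h4 : (q : ℤ) ∣ (-t) - (-t) % q :=
          Dvd.intro ((-t) / q) (by linarith [Int.emod_add_mul_ediv (-t) (q : ℤ)])
        have h5 : t + (j : ℤ) = -((-t) - (-t) % q) := by rw [h3]; ring
        rw [h5]
        exact (dvd_neg).2 h4
    have hmem : ((-t) % (q : ℤ)).toNat ∈ Finset.range q := by
      rw [Finset.mem_range]
      omega
    rw [Finset.sum_congr rfl (fun j hj => by
      rw [if_congr (key j (Finset.mem_range.1 hj)) rfl rfl])]
    rw [Finset.sum_ite_eq' (Finset.range q) ((-t) % (q : ℤ)).toNat (fun _ => 1), if_pos hmem]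
  · rw [if_neg h]
    symm
    apply Finset.sum_eq_zero
    intro j _
    rw [if_neg]
    intro h'
    apply h
    have h1 : n ≡ r + j * d [MOD d] := Nat.ModEq.of_mul_left q h'
    have h2 : r + j * d ≡ r [MOD d] := by
      simp [Nat.ModEq]
    exact h1.trans h2

theorem posCount_coarse (x : β) (d q r : ℕ) (hd : 0 < d) (hq : 0 < q) (w : List β) :
    posCount x d r w = ∑ j ∈ Finset.range q, posCount x (q * d) (r + j * d) w := by
  induction w using List.reverseRecOn with
  | nil => simp [posCount_nil]
  | append_singleton w y ih =>
    rw [posCount_snoc, ih]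
    rw [Finset.sum_congr rfl (fun j _ => posCount_snoc x (q * d) (r + j * d) w y)]
    rw [Finset.sum_add_distrib]
    congr 1
    by_cases hy : y = x
    · have := posCoarse_arith d q r w.length hd hq
      simp only [hy, true_and]
      exact this
    · simp [hy]

end Vale.Agent.H72
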