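import Vale.Agent.H88.SF.Gate
import Vale.Agent.H88.SF.Core
import Vale.Agent.H88.SF.FinDet

/-!
# Positional counting: definitions

* `posCount x k r w`: the number of positions `i ≡ r (mod k)` of the word `w` carrying `x`.
* `blockCount k g w`: cut `w` into consecutive blocks of length `k` (the incomplete last block
  is ignored); the number of blocks equal to the word `g 0, g 1, ..., g (k - 1)`.
* `PrimBlock k g`: the word `g 0 ... g (k - 1)` is primitive, in the form: every `d` such that
  the cyclic shift by `d` fixes it is a multiple of `k`.
* `blockStep k g`: the block automaton. Its states are `none` (the gate) and `some (c, f)`,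
  where `c` is the number of letters of the current block read so far (modulo `k`) and `f`
  says whether these letters agree with `g`. When a block is completed the automaton moves to
  `some (0, true)` if the block equals `g` and to the gate otherwise.
-/

namespace Vale.Agent.H72

open Vale.Agent.H88 Language

variable {β : Type} [DecidableEq β]

/-- The number of positions `i` of `w` with `i ≡ r (mod k)` carrying the letter `x`. -/
def posCount (x : β) (k r : ℕ) (w : List β) : ℕ :=
  ((Finset.range w.length).filter (fun i => w[i]? = some x ∧ i ≡ r [MOD k])).card

/-- The number of aligned blocks of length `k` of `w` equal to `g 0, ..., g (k - 1)`. -/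
def blockCount (k : ℕ) (g : ℕ → β) (w : List β) : ℕ :=
  ((Finset.range (w.length / k)).filter (fun j => ∀ i < k, w[j * k + i]? = some (g i))).card

/-- The word `g 0, ..., g (k - 1)` is primitive. -/
def PrimBlock (k : ℕ) (g : ℕ → β) : Prop :=
  ∀ d : ℕ, (∀ i : ℕ, g ((i + d) % k) = g (i % k)) → k ∣ d

/-- A word of length `k`, given as a function on `Fin k`, read as a function on `ℕ`. -/
def blockFn {k : ℕ} (hk : 0 < k) (γ : Fin k → β) : ℕ → β :=
  fun i => γ ⟨i % k, Nat.mod_lt i hk⟩

/-- The transition function of the block automaton. -/
def blockStep (k : ℕ) (g : ℕ → β) : Option (ZMod k × Bool) → β → Option (ZMod k × Bool) :=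
  fun s y =>
    let c : ZMod k := match s with
      | none => 0
      | some p => p.1
    let f : Bool := match s with
      | none => true
      | some p => decide (p.1 = 0) || p.2
    let f' : Bool := f && decide (y = g c.val)
    if c + 1 = 0 then (if f' then some (0, true) else none) else some (c + 1, f')

theorem posCount_nil (x : β) (k r : ℕ) : posCount x k r [] = 0 := by
  simp [posCount]

theorem posCount_snoc (x : β) (k r : ℕ) (w : List β) (y : β) :
    posCount x k r (w ++ [y]) =
      posCount x k r w + if (y = x ∧ w.length ≡ r [MOD k]) then 1 else 0 := by
  unfold posCount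
  have hlen : (w ++ [y]).length = w.length + 1 := by simp
  rw [hlen, Finset.range_add_one, Finset.filter_insert]
  have hcongr : (Finset.range w.length).filter
      (fun i => (w ++ [y])[i]? = some x ∧ i ≡ r [MOD k]) =
      (Finset.range w.length).filter (fun i => w[i]? = some x ∧ i ≡ r [MOD k]) := by
    apply Finset.filter_congr
    intro i hi
    have hi' : i < w.length := Finset.mem_range.1 hi
    rw [List.getElem?_append_left hi']
  rw [hcongr]
  have hlast : ((w ++ [y])[w.length]? = some x ∧ w.length ≡ r [MOD k]) ↔
      (y = x ∧ w.length ≡ r [MOD k]) := by
    rw [List.getElem?_concat_length]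
    simp
  by_cases hc : y = x ∧ w.length ≡ r [MOD k]
  · rw [if_pos (hlast.2 hc), if_pos hc, Finset.card_insert_of_notMem]
    simp
  · rw [if_neg (fun h => hc (hlast.1 h)), if_neg hc]
    rfl

end Vale.Agent.H72
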