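import Vale.Agent.H72.GSH3.Comap

/-!
# Inverse images under letter-erasing maps (board task POS-FCOMAP)

EXACT statement to prove (do not change it): `hasGSH_filterComap`.

For a map `ψ : α → Option β` (a letter `a` with `ψ a = none` is erased, the other letters are
renamed), the inverse image `{w | w.filterMap ψ ∈ L}` of a language `L` has generalized star
height at most that of `L` (the alphabet `α` being finite).

Proof sketch: induction on the expression, exactly as `comap_aux` / `hasGSH_comap` in
`Vale/Agent/H72/GSH3/Comap.lean` (inverse images under `List.map`). Let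
`E := {w | w.filterMap ψ = []}` (the words all of whose letters are erased). Then
`E = (⊤ * (⨆ a, ⨆ (_ : ψ a ≠ none), {[a]}) * ⊤)ᶜ`, of star height `0`. The inverse image
* of `0` is `0`; of `1` is `E`;
* of `{[b]}` is `E * (⨆ a, ⨆ (_ : ψ a = some b), {[a]}) * E`
  (`List.filterMap_eq_cons_iff` or induction on `w`);
* commutes with `+`, with complement, and with `*` (`List.filterMap_append`,
  `List.filterMap_eq_append_iff`);
* of `KStar.kstar L` is `KStar.kstar (inverse image of L) * E` (a word whose image is a
  concatenation of `n` words is a concatenation of `n` words with these images followed by a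
  word of `E`); the star height `e.height + 1` is kept.
-/

namespace Vale.Agent.H72

open Vale.Agent.H88 Language

universe u v

/-- The inverse image of a language under the letter-erasing map `ψ`. -/
def fcomapLang {α : Type u} {β : Type v} (ψ : α → Option β) (L : Language β) : Language α :=
  {w | w.filterMap ψ ∈ L}

theorem fcomap_mem {α : Type u} {β : Type v} {ψ : α → Option β} {L : Language β} {w : List α} :
    w ∈ fcomapLang ψ L ↔ w.filterMap ψ ∈ L := Iff.rfl

theorem fcomap_zero {α : Type u} {β : Type v} (ψ : α → Option β) :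
    fcomapLang ψ (0 : Language β) = 0 := by
  ext w
  rw [fcomap_mem]
  exact Iff.rfl

theorem fcomap_one_mem {α : Type u} {β : Type v} {ψ : α → Option β} {w : List α} :
    w ∈ fcomapLang ψ (1 : Language β) ↔ ∀ a ∈ w, ψ a = none := by
  rw [fcomap_mem, Language.mem_one, List.filterMap_eq_nil_iff]

theorem fcomap_one_nil {α : Type u} {β : Type v} {ψ : α → Option β} {w : List α}
    (h : w ∈ fcomapLang ψ (1 : Language β)) : w.filterMap ψ = [] :=
  (Language.mem_one _).1 (fcomap_mem.1 h)

/-- The words all of whose letters are erased, as a star-free expression. -/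
theorem fcomap_one {α : Type u} {β : Type v} (ψ : α → Option β) :
    fcomapLang ψ (1 : Language β) =
      ((⊤ : Language α) * (⨆ a : α, ⨆ (_ : ψ a ≠ none), ({[a]} : Language α)) * ⊤)ᶜ := by
  ext w
  rw [fcomap_one_mem, mem_compl_lang]
  constructor
  · intro h hmem
    rw [Language.mem_mul] at hmem
    obtain ⟨x, hx, v, _, rfl⟩ := hmem
    rw [Language.mem_mul] at hx
    obtain ⟨u, _, s, hs, rfl⟩ := hx
    rw [Language.mem_iSup] at hs
    obtain ⟨a, ha⟩ := hs
    by_cases hψ : ψ a ≠ none
    · rw [iSup_pos hψ] at ha
      have hs' : s = [a] := ha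
      subst hs'
      exact hψ (h a (by simp))
    · rw [iSup_neg hψ] at ha
      exact absurd ha (by intro h; exact h)
  · intro h a ha
    by_contra hψ
    apply h
    obtain ⟨u, v, rfl⟩ := List.append_of_mem ha
    rw [Language.mem_mul]
    refine ⟨u ++ [a], ?_, v, trivial, by simp⟩
    rw [Language.mem_mul]
    refine ⟨u, trivial, [a], ?_, rfl⟩
    rw [Language.mem_iSup]
    refine ⟨a, ?_⟩
    rw [iSup_pos (show ψ a ≠ none from hψ)]
    exact rfl

theorem fcomap_one_hasGSH {α : Type u} {β : Type v} [Fintype α] (ψ : α → Option β) (n : ℕ) :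
    HasGSH (fcomapLang ψ (1 : Language β)) n := by
  rw [fcomap_one]
  exact ((HasGSH.top.mul (HasGSH.iSup_prop _ _ fun a _ => HasGSH.char a)).mul HasGSH.top).compl

theorem fcomap_char {α : Type u} {β : Type v} (ψ : α → Option β) (b : β) :
    fcomapLang ψ ({[b]} : Language β) =
      fcomapLang ψ 1 * (⨆ a : α, ⨆ (_ : ψ a = some b), ({[a]} : Language α)) *
        fcomapLang ψ 1 := by
  ext w
  constructor
  · intro h
    have h' : w.filterMap ψ = [b] := h
    obtain ⟨l₁, a, l₂, rfl, h1, h2, h3⟩ := List.filterMap_eq_cons_iff.1 h'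
    rw [Language.mem_mul]
    refine ⟨l₁ ++ [a], ?_, l₂, ?_, by simp⟩
    · rw [Language.mem_mul]
      refine ⟨l₁, ?_, [a], ?_, rfl⟩
      · rw [fcomap_one_mem]
        exact h1
      · rw [Language.mem_iSup]
        refine ⟨a, ?_⟩
        simp only [h2, iSup_pos]
        exact rfl
    · rw [fcomap_mem, Language.mem_one]
      exact h3
  · intro h
    rw [Language.mem_mul] at h
    obtain ⟨x, hx, v, hv, rfl⟩ := h
    rw [Language.mem_mul] at hx
    obtain ⟨u, hu, s, hs, rfl⟩ := hx
    rw [Language.mem_iSup] at hs
    obtain ⟨a, ha⟩ := hs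
    by_cases hab : ψ a = some b
    · simp only [hab, iSup_pos] at ha
      have hs' : s = [a] := ha
      subst hs'
      have hu' := fcomap_one_nil hu
      have hv' := fcomap_one_nil hv
      change (u ++ [a] ++ v).filterMap ψ = [b]
      rw [List.filterMap_append, List.filterMap_append, hu', hv']
      simp [hab]
    · simp only [hab, iSup_neg, not_false_eq_true] at ha
      exact absurd ha (by intro h; exact h)

theorem fcomap_add {α : Type u} {β : Type v} (ψ : α → Option β) (L K : Language β) :
    fcomapLang ψ (L + K) = fcomapLang ψ L + fcomapLang ψ K := by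
  ext w
  exact Iff.rfl

theorem fcomap_compl {α : Type u} {β : Type v} (ψ : α → Option β) (L : Language β) :
    fcomapLang ψ Lᶜ = (fcomapLang ψ L)ᶜ := by
  ext w
  exact Iff.rfl

theorem fcomap_mul {α : Type u} {β : Type v} (ψ : α → Option β) (L K : Language β) :
    fcomapLang ψ (L * K) = fcomapLang ψ L * fcomapLang ψ K := by
  ext w
  rw [fcomap_mem, Language.mem_mul, Language.mem_mul]
  constructor
  · rintro ⟨u, hu, v, hv, huv⟩
    obtain ⟨w₁, w₂, rfl, h1, h2⟩ := List.filterMap_eq_append_iff.1 huv.symm
    exact ⟨w₁, by rw [fcomap_mem, h1]; exact hu, w₂, by rw [fcomap_mem, h2]; exact hv, rfl⟩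
  · rintro ⟨w₁, h1, w₂, h2, rfl⟩
    exact ⟨w₁.filterMap ψ, h1, w₂.filterMap ψ, h2, by rw [List.filterMap_append]⟩

/-- A word whose image is a concatenation is a concatenation of words with these images,
followed by a word all of whose letters are erased. -/
theorem fcomap_exists_flatten {α : Type u} {β : Type v} (ψ : α → Option β) :
    ∀ (S : List (List β)) (w : List α), w.filterMap ψ = S.flatten →
      ∃ (S' : List (List α)) (e : List α), w = S'.flatten ++ e ∧
        S'.map (List.filterMap ψ) = S ∧ e.filterMap ψ = []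
  | [], w, h => ⟨[], w, by simp, rfl, by simpa using h⟩
  | s :: S, w, h => by
    rw [List.flatten_cons] at h
    obtain ⟨w₁, w₂, rfl, h1, h2⟩ := List.filterMap_eq_append_iff.1 h
    obtain ⟨S', e, hS', hS'', he⟩ := fcomap_exists_flatten ψ S w₂ h2
    exact ⟨w₁ :: S', e, by rw [List.flatten_cons, hS', List.append_assoc],
      by rw [List.map_cons, h1, hS''], he⟩

theorem fcomap_kstar {α : Type u} {β : Type v} (ψ : α → Option β) (L : Language β) :
    fcomapLang ψ (KStar.kstar L) = KStar.kstar (fcomapLang ψ L) * fcomapLang ψ 1 := by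
  ext w
  rw [fcomap_mem, Language.mem_kstar, Language.mem_mul]
  constructor
  · rintro ⟨S, hS, hL⟩
    obtain ⟨S', e, hw, hS', he⟩ := fcomap_exists_flatten ψ S w hS
    refine ⟨S'.flatten, ?_, e, ?_, hw.symm⟩
    · rw [Language.mem_kstar]
      refine ⟨S', rfl, ?_⟩
      intro y hy
      rw [fcomap_mem]
      apply hL
      rw [← hS']
      exact List.mem_map_of_mem hy
    · rw [fcomap_mem, Language.mem_one]
      exact he
  · rintro ⟨x, hx, e, he, rfl⟩
    rw [Language.mem_kstar] at hx
    obtain ⟨S', rfl, hL⟩ := hx
    have he' := fcomap_one_nil he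
    refine ⟨S'.map (List.filterMap ψ), ?_, ?_⟩
    · rw [List.filterMap_append, he', List.append_nil, List.filterMap_flatten]
    · intro y hy
      obtain ⟨z, hz, rfl⟩ := List.mem_map.1 hy
      exact hL z hz

/-- The induction behind `hasGSH_filterComap`. -/
theorem fcomap_aux {α : Type u} {β : Type v} [Fintype α] (ψ : α → Option β) :
    ∀ e : GRegex β, HasGSH (fcomapLang ψ e.lang) e.height
  | .zero => by
    change HasGSH (fcomapLang ψ (0 : Language β)) _
    rw [fcomap_zero]
    exact HasGSH.zero
  | .one => by
    change HasGSH (fcomapLang ψ (1 : Language β)) _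
    exact fcomap_one_hasGSH ψ _
  | .char b => by
    change HasGSH (fcomapLang ψ ({[b]} : Language β)) _
    rw [fcomap_char]
    exact ((fcomap_one_hasGSH ψ _).mul (HasGSH.iSup_prop _ _ fun a _ => HasGSH.char a)).mul
      (fcomap_one_hasGSH ψ _)
  | .plus e g => by
    change HasGSH (fcomapLang ψ (e.lang + g.lang)) (max e.height g.height)
    rw [fcomap_add]
    exact ((fcomap_aux ψ e).mono (le_max_left _ _)).add ((fcomap_aux ψ g).mono (le_max_right _ _))
  | .comp e g => by
    change HasGSH (fcomapLang ψ (e.lang * g.lang)) (max e.height g.height)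
    rw [fcomap_mul]
    exact ((fcomap_aux ψ e).mono (le_max_left _ _)).mul ((fcomap_aux ψ g).mono (le_max_right _ _))
  | .compl e => by
    change HasGSH (fcomapLang ψ (e.lang)ᶜ) e.height
    rw [fcomap_compl]
    exact (fcomap_aux ψ e).compl
  | .star e => by
    change HasGSH (fcomapLang ψ (KStar.kstar e.lang)) (e.height + 1)
    rw [fcomap_kstar]
    exact (fcomap_aux ψ e).kstar.mul (fcomap_one_hasGSH ψ _)

theorem hasGSH_filterComap {α : Type u} {β : Type v} [Fintype α] (ψ : α → Option β)
    {L : Language β} {n : ℕ} (h : HasGSH L n) :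
    HasGSH ({w | w.filterMap ψ ∈ L} : Language α) n := by
  obtain ⟨e, rfl, he⟩ := h
  exact (fcomap_aux ψ e).mono he

end Vale.Agent.H72
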