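import Vale.Agent.H72.Pos.Defs

/-!
# An imprimitive word has a period `k / q` for a prime `q` (board task POS-IMPRIM)

EXACT statement to prove (do not change it): `imprim_prime`.

`PrimBlock k g` (file Defs) says: every `d` such that `g ((i + d) % k) = g (i % k)` for all `i`
is a multiple of `k`.

Proof sketch. If `PrimBlock k g` fails there is `d` with `g ((i + d) % k) = g (i % k)` for all
`i` and `k ∤ d`. Call `e` a period if `g ((i + e) % k) = g (i % k)` for all `i`. Periods are
closed under addition (apply the hypothesis at `i + e`, with `Nat.add_mod`), so every multiple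
of `d` is a period; `k` is a period; and if `e + k` is a period then so is `e`
(`Nat.add_mod_right`). Let `e₀ := Nat.gcd d k`. There are `a`, `b` with `a * d = e₀ + b * k`
(Bezout for natural numbers, e.g. from `Nat.gcd_eq_gcd_ab` or `Nat.exists_mul_emod_eq_gcd`), so
`e₀` is a period; `e₀ ∣ k` and `e₀ < k` because `k ∤ d`. The number `k / e₀ ≥ 2` has a prime
factor `q` (`Nat.exists_prime_and_dvd`); `q ∣ k`, so `q ∈ k.primeFactorsList`
(`Nat.mem_primeFactorsList`), and `k / q` is a multiple of `e₀`, hence a period.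
-/

namespace Vale.Agent.H72

/-- Periods are closed under addition. -/
theorem imprim_per_add {β : Type} {k : ℕ} (g : ℕ → β) {a b : ℕ}
    (ha : ∀ i : ℕ, g ((i + a) % k) = g (i % k))
    (hb : ∀ i : ℕ, g ((i + b) % k) = g (i % k)) :
    ∀ i : ℕ, g ((i + (a + b)) % k) = g (i % k) := by
  intro i
  have h1 := hb (i + a)
  rw [← Nat.add_assoc, h1, ha i]

/-- Every multiple of a period is a period. -/
theorem imprim_per_mul {β : Type} {k : ℕ} (g : ℕ → β) {a : ℕ}
    (ha : ∀ i : ℕ, g ((i + a) % k) = g (i % k)) (n : ℕ) :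
    ∀ i : ℕ, g ((i + n * a) % k) = g (i % k) := by
  induction n with
  | zero => intro i; simp
  | succ n ih =>
    have := imprim_per_add g ih ha
    intro i
    have h2 := this i
    rw [Nat.succ_mul]
    exact h2

/-- Multiples of `k` can be removed from a period. -/
theorem imprim_per_cancel {β : Type} {k : ℕ} (g : ℕ → β) {e b : ℕ}
    (h : ∀ i : ℕ, g ((i + (e + b * k)) % k) = g (i % k)) :
    ∀ i : ℕ, g ((i + e) % k) = g (i % k) := by
  intro i
  have h1 := h i
  rw [← Nat.add_assoc, Nat.add_mul_mod_self_right] at h1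
  exact h1

variable {β : Type} [DecidableEq β]

theorem imprim_prime {k : ℕ} (hk : 0 < k) (g : ℕ → β) (h : ¬ PrimBlock k g) :
    ∃ q ∈ k.primeFactorsList, ∀ i : ℕ, g ((i + k / q) % k) = g (i % k) := by
  unfold PrimBlock at h
  push Not at h
  obtain ⟨d, hd, hnd⟩ := h
  have hgk : Nat.gcd d k ∣ k := Nat.gcd_dvd_right d k
  have hgle : Nat.gcd d k ≤ k := Nat.le_of_dvd hk hgk
  have hgne : Nat.gcd d k ≠ k := by
    intro he
    apply hnd
    have := Nat.gcd_dvd_left d k
    rw [he] at this
    exact this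
  have hglt : Nat.gcd d k < k := lt_of_le_of_ne hgle hgne
  obtain ⟨m, -, hm⟩ := Nat.exists_mul_mod_eq_gcd hglt
  have hper0 : ∀ i : ℕ, g ((i + Nat.gcd d k) % k) = g (i % k) := by
    apply imprim_per_cancel g (b := d * m / k)
    have hmd := imprim_per_mul g hd m
    have heq : Nat.gcd d k + d * m / k * k = m * d := by
      have := Nat.mod_add_div (d * m) k
      rw [hm] at this
      rw [Nat.mul_comm (d * m / k) k, this, Nat.mul_comm]
    rw [heq]
    exact hmd
  have hgpos : 0 < Nat.gcd d k := Nat.gcd_pos_of_pos_right d hk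
  generalize Nat.gcd d k = e at hper0 hgne hgk hgpos
  obtain ⟨c, hc⟩ := hgk
  have hc1 : c ≠ 1 := by
    intro h1
    rw [h1, Nat.mul_one] at hc
    exact hgne hc.symm
  obtain ⟨q, hq, hqc⟩ := Nat.exists_prime_and_dvd hc1
  obtain ⟨t, ht⟩ := hqc
  have hkq : k = q * (t * e) := by
    rw [hc, ht]; ring
  have hqk : q ∣ k := ⟨t * e, hkq⟩
  refine ⟨q, ?_, ?_⟩
  · rw [Nat.mem_primeFactorsList (Nat.pos_iff_ne_zero.mp hk)]
    exact ⟨hq, hqk⟩
  · have hdiv : k / q = t * e := by
      rw [hkq]
      exact Nat.mul_div_cancel_left _ hq.pos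
    rw [hdiv]
    exact imprim_per_mul g hper0 t

end Vale.Agent.H72
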