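import Vale.Agent.H72.Pos.BlockAuto
import Vale.Agent.H72.Pos.BlockCF
import Vale.Agent.H72.Pos.Arith
import Vale.Agent.H72.Pos.ImPrim
import Vale.Agent.H72.Pos.Coarse
import Vale.Agent.H72.Pos.Blocks

/-!
# Positional counting has generalized star height at most one

For a finite alphabet, a letter `x`, a modulus `k ≥ 1` and a residue `r`, the languages
`{w | posCount x k r w ≡ c [MOD m]}` (the number of positions `i ≡ r (mod k)` of `w` carrying
`x` is congruent to `c` modulo `m`) have generalized star height at most one
(`hasGSH_posCount`).
-/

namespace Vale.Agent.H72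

open Vale.Agent.H88 Language

variable {β : Type} [DecidableEq β]

theorem posCount_mod (x : β) (k r : ℕ) (w : List β) :
    posCount x k r w = posCount x k (r % k) w := by
  unfold posCount
  congr 1
  apply Finset.filter_congr
  intro i _
  have e : i ≡ r [MOD k] ↔ i ≡ r % k [MOD k] := by
    unfold Nat.ModEq
    rw [Nat.mod_mod]
  rw [e]

theorem sum_count_eq_length [Fintype β] (w : List β) : ∑ a : β, w.count a = w.length := by
  induction w with
  | nil => simp
  | cons y w ih =>
    have e : ∀ a : β, (y :: w).count a = w.count a + if a = y then 1 else 0 := by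
      intro a
      rw [List.count_cons]
      by_cases h : a = y
      · subst h
        simp
      · have h' : ¬ (y = a) := fun e => h e.symm
        simp [h, h']
    simp_rw [e]
    rw [Finset.sum_add_distrib, ih, Finset.sum_ite_eq' Finset.univ y]
    simp

theorem hasGSH_length [Fintype β] (M : ℕ) (hM : 0 < M) (r : ℕ) :
    HasGSH (modLang (List.length : List β → ℕ) M r) 1 := by
  have h := hasGSH_sum_modEq (Finset.univ : Finset β) (fun a w => w.count a) M hM
    (fun a _ c => hasGSH_count a M hM c) r
  refine h.of_eq ?_
  ext w
  change (∑ a : β, w.count a) ≡ r [MOD M] ↔ w.length ≡ r [MOD M]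
  rw [sum_count_eq_length]

theorem hasGSH_lenDiv [Fintype β] (k m : ℕ) (hk : 0 < k) (hm : 0 < m) (c : ℕ) :
    HasGSH (modLang (fun w : List β => w.length / k) m c) 1 := by
  refine hasGSH_of_determined (ι := Unit) (fun _ => (List.length : List β → ℕ)) (k * m)
    (Nat.mul_pos hk hm) (fun _ r => hasGSH_length (k * m) (Nat.mul_pos hk hm) r) _ ?_
  intro w w' h hw
  have h1 : w.length ≡ w'.length [MOD k * m] := h ()
  have hw1 : w.length / k ≡ c [MOD m] := hw
  change w'.length / k ≡ c [MOD m]
  refine Nat.ModEq.trans ?_ hw1
  -- lengths congruent modulo `k * m` have quotients by `k` congruent modulo `m`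
  have h2 : w.length % k = w'.length % k := Nat.ModEq.of_mul_right m h1
  have e1 := Nat.div_add_mod w.length k
  have e2 := Nat.div_add_mod w'.length k
  have h3 : k * (w'.length / k) ≡ k * (w.length / k) [MOD k * m] := by
    have h4 : k * (w'.length / k) + w'.length % k ≡ k * (w.length / k) + w'.length % k
        [MOD k * m] := by
      rw [e2, ← h2, e1]
      exact h1.symm
    exact Nat.ModEq.add_right_cancel' _ h4
  exact Nat.ModEq.mul_left_cancel' hk.ne' h3

/-- Counting the aligned blocks equal to a primitive word. -/
theorem hasGSH_blockCount [Fintype β] {k : ℕ} (hk : 0 < k) (g : ℕ → β) (hg : PrimBlock k g)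
    (m : ℕ) (hm : 0 < m) (c : ℕ) : HasGSH (modLang (blockCount k g) m c) 1 := by
  have : NeZero k := ⟨hk.ne'⟩
  refine hasGSH_lincomb (f := blockCount k g)
    (g := visits (blockStep k g) (some (0, true)) none)
    (h := fun w : List β => w.length / k) 1 m one_pos hm ?_ ?_ ?_ c
  · intro w
    rw [one_mul, add_comm]
    exact blockAuto_visits hk g w
  · intro r
    exact hasGSH_visits (blockStep k g) none (blockStep_counterFree hk g hg) (some (0, true)) _
      (Nat.mul_pos one_pos hm) r
  · intro r
    exact hasGSH_lenDiv k (1 * m) hk (Nat.mul_pos one_pos hm) r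

/-- Two words whose lengths are multiples of `k`, with the same numbers of aligned blocks equal
to each primitive word and the same positional counts for all smaller moduli, everything modulo
`k * m`, have the same positional counts for the modulus `k`, modulo `m`. -/
theorem posCount_det [Fintype β] {k : ℕ} (hk : 0 < k) (x : β) (m : ℕ) (w w' : List β)
    (hw : k ∣ w.length) (hw' : k ∣ w'.length)
    (hblock : ∀ γ : Fin k → β, PrimBlock k (blockFn hk γ) →
      blockCount k (blockFn hk γ) w ≡ blockCount k (blockFn hk γ) w' [MOD k * m])
    (hcoarse : ∀ d r, 0 < d → d < k → posCount x d r w ≡ posCount x d r w' [MOD k * m])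
    (r : ℕ) : posCount x k r w ≡ posCount x k r w' [MOD m] := by
  classical
  let f : ℕ → ZMod (k * m) :=
    fun i => (posCount x k i w : ZMod (k * m)) - (posCount x k i w' : ZMod (k * m))
  have key : ∀ i, k.primeFactorsList.prod • f i = 0 := by
    intro i
    apply iterDiff_recover k k.primeFactorsList f
    · intro q hq j
      have hqp : q.Prime := Nat.prime_of_mem_primeFactorsList hq
      have hqk : q ∣ k := Nat.dvd_of_mem_primeFactorsList hq
      have hd : 0 < k / q := Nat.div_pos (Nat.le_of_dvd hk hqk) hqp.pos
      have hdk : k / q < k := Nat.div_lt_self hk hqp.one_lt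
      have hmul : q * (k / q) = k := Nat.mul_div_cancel' hqk
      have e1 := posCount_coarse x (k / q) q j hd hqp.pos w
      have e2 := posCount_coarse x (k / q) q j hd hqp.pos w'
      rw [hmul] at e1 e2
      have e3 : ((posCount x (k / q) j w : ℕ) : ZMod (k * m)) = (posCount x (k / q) j w' : ℕ) :=
        (ZMod.natCast_eq_natCast_iff _ _ _).2 (hcoarse (k / q) j hd hdk)
      change ∑ t ∈ Finset.range q, ((posCount x k (j + t * (k / q)) w : ZMod (k * m)) -
        (posCount x k (j + t * (k / q)) w' : ZMod (k * m))) = 0
      rw [Finset.sum_sub_distrib, ← Nat.cast_sum, ← Nat.cast_sum, ← e1, ← e2, e3, sub_self]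
    · intro j
      let a : (Fin k → β) → ZMod (k * m) := fun γ =>
        (blockCount k (blockFn hk γ) w : ZMod (k * m)) - (blockCount k (blockFn hk γ) w' : ZMod (k * m))
      let cc : (Fin k → β) → ℕ → ZMod (k * m) := fun γ t => if blockFn hk γ t = x then 1 else 0
      have hf : f = fun t => ∑ γ ∈ (Finset.univ : Finset (Fin k → β)), a γ * cc γ t := by
        funext t
        change (posCount x k t w : ZMod (k * m)) - (posCount x k t w' : ZMod (k * m)) = _
        rw [posCount_blocks hk x t w hw, posCount_blocks hk x t w' hw', Nat.cast_sum, Nat.cast_sum,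
          ← Finset.sum_sub_distrib]
        apply Finset.sum_congr rfl
        intro γ _
        change _ = ((blockCount k (blockFn hk γ) w : ZMod (k * m)) -
          (blockCount k (blockFn hk γ) w' : ZMod (k * m))) * (if blockFn hk γ t = x then 1 else 0)
        by_cases hx : blockFn hk γ t = x
        · simp [hx]
        · simp [hx]
      rw [hf, iterDiff_sum_mul]
      apply Finset.sum_eq_zero
      intro γ _
      by_cases hprim : PrimBlock k (blockFn hk γ)
      · have ha : a γ = 0 := by
          change (blockCount k (blockFn hk γ) w : ZMod (k * m)) -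
            (blockCount k (blockFn hk γ) w' : ZMod (k * m)) = 0
          rw [(ZMod.natCast_eq_natCast_iff _ _ _).2 (hblock γ hprim), sub_self]
        rw [ha, zero_mul]
      · obtain ⟨q, hq, hinv⟩ := imprim_prime hk (blockFn hk γ) hprim
        have hz : iterDiff (k.primeFactorsList.map (fun q => k / q)) (cc γ) j = 0 := by
          apply iterDiff_eq_zero_of_invariant _ (k / q) (List.mem_map.2 ⟨q, hq, rfl⟩)
          intro t
          have h1 : ∀ n, blockFn hk γ n = blockFn hk γ (n % k) := by
            intro n
            unfold blockFn
            congr 1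
            exact Fin.ext (Nat.mod_mod n k).symm
          have e : blockFn hk γ (t + k / q) = blockFn hk γ t := by
            rw [h1 (t + k / q), hinv t, ← h1 t]
          change (if blockFn hk γ (t + k / q) = x then (1 : ZMod (k * m)) else 0) =
            if blockFn hk γ t = x then 1 else 0
          rw [e]
        rw [hz, mul_zero]
  have h1 := key r
  rw [Nat.prod_primeFactorsList hk.ne'] at h1
  have h2 : ((k * posCount x k r w : ℕ) : ZMod (k * m)) = ((k * posCount x k r w' : ℕ) : ZMod (k * m)) := by
    have h3 : (k : ZMod (k * m)) * ((posCount x k r w : ZMod (k * m)) -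
        (posCount x k r w' : ZMod (k * m))) = 0 := by
      rw [← nsmul_eq_mul]
      exact h1
    rw [Nat.cast_mul, Nat.cast_mul]
    rw [mul_sub, sub_eq_zero] at h3
    exact h3
  have h4 : k * posCount x k r w ≡ k * posCount x k r w' [MOD k * m] :=
    (ZMod.natCast_eq_natCast_iff _ _ _).1 h2
  exact Nat.ModEq.mul_left_cancel' hk.ne' h4

/-- Positional counting on the words whose length is a multiple of `k`, given the statement for
all smaller moduli. -/
theorem hasGSH_posCount_aligned [Fintype β] (x : β) {k : ℕ} (hk : 0 < k)
    (ih : ∀ d, 0 < d → d < k → ∀ (M : ℕ), 0 < M → ∀ r c, HasGSH (modLang (posCount x d r) M c) 1)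
    (m : ℕ) (hm : 0 < m) (r c : ℕ) :
    HasGSH ({w | k ∣ w.length ∧ posCount x k r w ≡ c [MOD m]} : Language β) 1 := by
  classical
  have hK : 0 < k * m := Nat.mul_pos hk hm
  refine hasGSH_of_determined (ι := (Fin k → β) ⊕ ((Fin k × Fin k) ⊕ Unit))
    (fun i => match i with
      | Sum.inl γ => if PrimBlock k (blockFn hk γ) then blockCount k (blockFn hk γ) else fun _ => 0
      | Sum.inr (Sum.inl (d, t)) => if 0 < (d : ℕ) then posCount x (d : ℕ) (t : ℕ) else fun _ => 0
      | Sum.inr (Sum.inr _) => List.length)
    (k * m) hK ?_ _ ?_
  · rintro (γ | ⟨d, t⟩ | _) e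
    · by_cases hp : PrimBlock k (blockFn hk γ)
      · simp only [if_pos hp]
        exact hasGSH_blockCount hk _ hp (k * m) hK e
      · simp only [if_neg hp]
        exact hasGSH_const _ 1
    · by_cases hd : 0 < (d : ℕ)
      · simp only [if_pos hd]
        exact ih (d : ℕ) hd d.2 (k * m) hK (t : ℕ) e
      · simp only [if_neg hd]
        exact hasGSH_const _ 1
    · exact hasGSH_length (k * m) hK e
  · intro w w' hww hw
    obtain ⟨hwk, hwc⟩ := hw
    have hlen : w.length ≡ w'.length [MOD k * m] := hww (Sum.inr (Sum.inr ()))
    have hwk' : k ∣ w'.length := by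
      have h1 : w.length ≡ w'.length [MOD k] := Nat.ModEq.of_mul_right m hlen
      exact (Nat.modEq_zero_iff_dvd).1 (h1.symm.trans ((Nat.modEq_zero_iff_dvd).2 hwk))
    refine ⟨hwk', ?_⟩
    refine Nat.ModEq.trans (Nat.ModEq.symm ?_) hwc
    apply posCount_det hk x m w w' hwk hwk'
    · intro γ hp
      have h1 := hww (Sum.inl γ)
      simp only [if_pos hp] at h1
      exact h1
    · intro d t hd hdk
      have h1 := hww (Sum.inr (Sum.inl (⟨d, hdk⟩, ⟨t % d, (Nat.mod_lt t hd).trans hdk⟩)))
      simp only [if_pos hd] at h1
      rw [posCount_mod x d t w, posCount_mod x d t w']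
      exact h1

/-- The words of length `≡ t (mod k)` whose positional count is `≡ c (mod m)`. -/
def posLang (x : β) (k r m t c : ℕ) : Language β :=
  {w | w.length ≡ t [MOD k] ∧ posCount x k r w ≡ c [MOD m]}

/-- **Positional counting.** The words in which the number of positions `i ≡ r (mod k)`
carrying the letter `x` is congruent to `c` modulo `m` form a language of generalized star
height at most one. -/
theorem hasGSH_posCount [Fintype β] (x : β) (k : ℕ) (hk : 0 < k) (m : ℕ) (hm : 0 < m)
    (r c : ℕ) : HasGSH (modLang (posCount x k r) m c) 1 := by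
  induction k using Nat.strong_induction_on generalizing m r c with
  | _ k IH =>
    have ih : ∀ d, 0 < d → d < k → ∀ (M : ℕ), 0 < M → ∀ r c,
        HasGSH (modLang (posCount x d r) M c) 1 :=
      fun d hd hdk M hM r c => IH d hdk hd M hM r c
    -- the words of length `≡ t (mod k)`
    have step : ∀ t, t < k → ∀ c, HasGSH (posLang x k r m t c) 1 := by
      intro t
      induction t with
      | zero =>
        intro _ c
        refine (hasGSH_posCount_aligned x hk ih m hm r c).of_eq ?_
        ext w
        change (k ∣ w.length ∧ _) ↔ (w.length ≡ 0 [MOD k] ∧ _)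
        rw [Nat.modEq_zero_iff_dvd]
      | succ t iht =>
        intro ht c
        have ht' : t < k := Nat.lt_of_succ_lt ht
        let eps : β → ℕ := fun y => if (y = x ∧ t ≡ r [MOD k]) then 1 else 0
        have key : posLang x k r m (t + 1) c
            = ⨆ y : β, (posLang x k r m t (c + eps y * (m - 1)) * ({[y]} : Language β)) := by
          ext w
          rw [mem_iSup_lang]
          constructor
          · rintro ⟨hl, hc⟩
            rcases List.eq_nil_or_concat w with rfl | ⟨v, y, rfl⟩
            · exfalso
              have h0 : (0 : ℕ) ≡ t + 1 [MOD k] := hl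
              have h1 : k ∣ t + 1 := (Nat.modEq_zero_iff_dvd).1 h0.symm
              exact absurd (Nat.le_of_dvd (Nat.succ_pos t) h1) (Nat.not_le.2 ht)
            · refine ⟨y, ?_⟩
              rw [List.concat_eq_append, Language.mem_mul]
              rw [List.concat_eq_append] at hl hc
              refine ⟨v, ⟨?_, ?_⟩, [y], rfl, rfl⟩
              · have h1 : v.length + 1 ≡ t + 1 [MOD k] := by
                  simpa using hl
                exact Nat.ModEq.add_right_cancel' 1 h1
              · have hv : v.length ≡ t [MOD k] := by
                  have h1 : v.length + 1 ≡ t + 1 [MOD k] := by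
                    simpa using hl
                  exact Nat.ModEq.add_right_cancel' 1 h1
                rw [posCount_snoc] at hc
                have e : (if (y = x ∧ v.length ≡ r [MOD k]) then 1 else 0) = eps y := by
                  have e1 : v.length ≡ r [MOD k] ↔ t ≡ r [MOD k] :=
                    ⟨fun h => hv.symm.trans h, fun h => hv.trans h⟩
                  exact if_congr (and_congr Iff.rfl e1) rfl rfl
                rw [e] at hc
                -- posCount v + eps ≡ c, so posCount v ≡ c + eps * (m - 1)
                have h2 : posCount x k r v + eps y + eps y * (m - 1) ≡ c + eps y * (m - 1) [MOD m] :=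
                  Nat.ModEq.add_right _ hc
                have h3 : posCount x k r v + eps y + eps y * (m - 1) = posCount x k r v + eps y * m := by
                  obtain ⟨m', rfl⟩ : ∃ m', m = m' + 1 := ⟨m - 1, by omega⟩
                  simp only [Nat.add_sub_cancel]
                  ring
                rw [h3] at h2
                have h4 : posCount x k r v + eps y * m ≡ posCount x k r v [MOD m] := by
                  have : eps y * m ≡ 0 [MOD m] := (Nat.modEq_zero_iff_dvd).2 (dvd_mul_left m _)
                  exact Nat.ModEq.add_left (posCount x k r v) this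
                exact h4.symm.trans h2
          · rintro ⟨y, hy⟩
            rw [Language.mem_mul] at hy
            obtain ⟨v, ⟨hv, hc⟩, u, hu, rfl⟩ := hy
            have hu' : u = [y] := hu
            subst hu'
            refine ⟨?_, ?_⟩
            · rw [List.length_append, List.length_singleton]
              exact Nat.ModEq.add_right 1 hv
            · rw [posCount_snoc]
              have e : (if (y = x ∧ v.length ≡ r [MOD k]) then 1 else 0) = eps y := by
                have e1 : v.length ≡ r [MOD k] ↔ t ≡ r [MOD k] :=
                  ⟨fun h => hv.symm.trans h, fun h => hv.trans h⟩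
                exact if_congr (and_congr Iff.rfl e1) rfl rfl
              rw [e]
              have h2 : posCount x k r v + eps y ≡ c + eps y * (m - 1) + eps y [MOD m] :=
                Nat.ModEq.add_right _ hc
              have h3 : c + eps y * (m - 1) + eps y = c + eps y * m := by
                obtain ⟨m', rfl⟩ : ∃ m', m = m' + 1 := ⟨m - 1, by omega⟩
                simp only [Nat.add_sub_cancel]
                ring
              rw [h3] at h2
              have h4 : c + eps y * m ≡ c [MOD m] := by
                have : eps y * m ≡ 0 [MOD m] := (Nat.modEq_zero_iff_dvd).2 (dvd_mul_left m _)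
                exact Nat.ModEq.add_left c this
              exact h2.trans h4
        rw [key]
        exact HasGSH.iSup _ fun y => (iht ht' _).mul (HasGSH.char y)
    have e : modLang (posCount x k r) m c = ⨆ t : Fin k, posLang x k r m (t : ℕ) c := by
      ext w
      rw [mem_iSup_lang]
      constructor
      · intro hw
        exact ⟨⟨w.length % k, Nat.mod_lt _ hk⟩, (Nat.mod_modEq _ _).symm, hw⟩
      · rintro ⟨t, _, hw⟩
        exact hw
    rw [e]
    exact HasGSH.iSup _ fun t => step (t : ℕ) t.2 c

end Vale.Agent.H72
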