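import Vale.Agent.H72.Pos.Defs
import Vale.Agent.H72.GSH3.UnitClock

/-!
# Unit clocks whose counted letter is a clock letter (board task POS-UNITPOS)

EXACT statement to prove (do not change it): `unitCount_eq_posCount`.

`unitCount S x k r w` (file `Vale/Agent/H72/GSH3/UnitClock.lean`) is the number of positions
`i` of `w` carrying `x` such that the number of letters from `S` before `i` is `≡ r (mod k)`.
When `x ∈ S` this is a positional count in the word obtained by erasing the letters outside
`S` and renaming `x` to `true` and the other letters of `S` to `false`.

Proof sketch. Induction on `w` from the right (`List.reverseRecOn`) with `unitCount_snoc`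
(file UnitClock), `posCount_snoc` (file Defs), `List.filterMap_append`, and the auxiliary fact
`(w.filterMap (unitErase S x)).length = w.countP (fun z => z ∈ S)` (induction on `w`).
Three cases for the last letter `y`: `y = x` (then `y ∈ S`), `y ∈ S` and `y ≠ x`, `y ∉ S`
(then `y ≠ x`).
-/

namespace Vale.Agent.H72

universe u

variable {α : Type u} [DecidableEq α]

/-- Erase the letters outside `S`, rename `x` to `true` and the other letters of `S` to
`false`. -/
def unitErase (S : Finset α) (x : α) : α → Option Bool :=
  fun y => if y = x then some true else if y ∈ S then some false else none

theorem unitpos_erase_self (S : Finset α) (x : α) : unitErase S x x = some true := by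
  unfold unitErase
  rw [if_pos rfl]

theorem unitpos_erase_mem (S : Finset α) (x y : α) (hyx : y ≠ x) (hy : y ∈ S) :
    unitErase S x y = some false := by
  unfold unitErase
  rw [if_neg hyx, if_pos hy]

theorem unitpos_erase_notMem (S : Finset α) (x y : α) (hx : x ∈ S) (hy : y ∉ S) :
    unitErase S x y = none := by
  have hyx : y ≠ x := fun h => hy (h ▸ hx)
  unfold unitErase
  rw [if_neg hyx, if_neg hy]

theorem unitpos_length (S : Finset α) (x : α) (hx : x ∈ S) (w : List α) :
    (w.filterMap (unitErase S x)).length = w.countP (fun z => z ∈ S) := by
  induction w with
  | nil => simp
  | cons y w ih =>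
    by_cases hyx : y = x
    · subst hyx
      rw [List.filterMap_cons_some (unitpos_erase_self S y), List.length_cons, ih,
        List.countP_cons_of_pos (by simpa using hx)]
    · by_cases hy : y ∈ S
      · rw [List.filterMap_cons_some (unitpos_erase_mem S x y hyx hy), List.length_cons, ih,
          List.countP_cons_of_pos (by simpa using hy)]
      · rw [List.filterMap_cons_none (unitpos_erase_notMem S x y hx hy), ih,
          List.countP_cons_of_neg (by simpa using hy)]

theorem unitCount_eq_posCount (S : Finset α) (x : α) (hx : x ∈ S) (k r : ℕ) (w : List α) :
    unitCount S x k r w = posCount true k r (w.filterMap (unitErase S x)) := by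
  induction w using List.reverseRecOn with
  | nil =>
    rw [unitCount_nil, List.filterMap_nil, posCount_nil]
  | append_singleton w y ih =>
    rw [unitCount_snoc, List.filterMap_append, ih]
    by_cases hyx : y = x
    · subst hyx
      have h1 : List.filterMap (unitErase S y) [y] = [true] := by
        rw [List.filterMap_cons_some (unitpos_erase_self S y), List.filterMap_nil]
      rw [h1, posCount_snoc, unitpos_length S y hx w]
      simp
    · by_cases hy : y ∈ S
      · have h1 : List.filterMap (unitErase S x) [y] = [false] := by
          rw [List.filterMap_cons_some (unitpos_erase_mem S x y hyx hy), List.filterMap_nil]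
        rw [h1, posCount_snoc]
        simp [hyx]
      · have h1 : List.filterMap (unitErase S x) [y] = [] := by
          rw [List.filterMap_cons_none (unitpos_erase_notMem S x y hx hy), List.filterMap_nil]
        rw [h1, List.append_nil]
        simp [hyx]

end Vale.Agent.H72
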