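import Vale.Agent.H72.Pos.Main
import Vale.Agent.H72.Pos.FilterComap
import Vale.Agent.H72.Pos.UnitPos

/-!
# Unit clocks, without restriction on the counted letter

For a set `S` of letters, any letter `x` (in `S` or not), `k, m ≥ 1` and residues `r`, `c`, the
words in which the number of positions carrying `x` and preceded by a number of letters of `S`
congruent to `r` modulo `k` is congruent to `c` modulo `m` form a language of generalized
star height at most one (`hasGSH_unitCount_full`). For `S` the whole alphabet this is
positional counting (`hasGSH_position`).
-/

namespace Vale.Agent.H72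

open Vale.Agent.H88 Language

universe u

variable {α : Type u} [DecidableEq α]

/-- **Unit clocks, any counted letter.** -/
theorem hasGSH_unitCount_full [Fintype α] (S : Finset α) (x : α) (k m : ℕ) (hk : 0 < k)
    (hm : 0 < m) (r c : ℕ) : HasGSH (modLang (unitCount S x k r) m c) 1 := by
  by_cases hx : x ∈ S
  · have h := hasGSH_filterComap (unitErase S x) (hasGSH_posCount true k hk m hm r c)
    refine h.of_eq ?_
    ext w
    change posCount true k r (w.filterMap (unitErase S x)) ≡ c [MOD m] ↔
      unitCount S x k r w ≡ c [MOD m]
    rw [unitCount_eq_posCount S x hx]
  · exact hasGSH_unitCount S x hx k m hk hm r c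

/-- **Positional counting over any finite alphabet.** The words in which the number of
positions `i ≡ r (mod k)` carrying the letter `x` is congruent to `c` modulo `m` form a
language of generalized star height at most one. -/
theorem hasGSH_position [Fintype α] (x : α) (k m : ℕ) (hk : 0 < k) (hm : 0 < m) (r c : ℕ) :
    HasGSH ({w : List α | ((Finset.range w.length).filter
      (fun i => w[i]? = some x ∧ i ≡ r [MOD k])).card ≡ c [MOD m]} : Language α) 1 := by
  refine (hasGSH_unitCount_full (Finset.univ : Finset α) x k m hk hm r c).of_eq ?_
  ext w
  change unitCount Finset.univ x k r w ≡ c [MOD m] ↔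
    ((Finset.range w.length).filter (fun i => w[i]? = some x ∧ i ≡ r [MOD k])).card ≡ c [MOD m]
  have e : unitCount Finset.univ x k r w =
      ((Finset.range w.length).filter (fun i => w[i]? = some x ∧ i ≡ r [MOD k])).card := by
    unfold unitCount
    congr 1
    apply Finset.filter_congr
    intro i hi
    have hi' : i < w.length := Finset.mem_range.1 hi
    have hc : (w.take i).countP (fun y => y ∈ (Finset.univ : Finset α)) = i := by
      have h1 : (w.take i).countP (fun y => decide (y ∈ (Finset.univ : Finset α))) =
          (w.take i).length := by
        rw [List.countP_eq_length]
        intro a _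
        simp
      rw [h1, List.length_take]
      exact Nat.min_eq_left hi'.le
    rw [hc]
  rw [e]

end Vale.Agent.H72
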