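import Vale.Agent.H72.Pos.Unit
import Vale.Agent.H88.SF.Grp

/-!
# Groups with an abelian normal subgroup, generators in two cosets

Let `π` be a homomorphism from a finite group `G` to a finite abelian group with commutative
kernel `A`, and let `φ` map every letter into `A` or into the coset `t A` of one fixed element
`t`. Then every language recognized through `φ` has generalized star height at most one
(`hasGSH_group_unitGen`): the clock `π ∘ φ` is a unit clock, and the counters of a unit clock
are covered by `hasGSH_unitCount_full` for every counted letter.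
-/

namespace Vale.Agent.H72

open Vale.Agent.H88 Language

universe u

variable {α : Type u}

/-- The clock of a word whose letters have weight `0` or `v`. -/
theorem unitgrp_sum [DecidableEq α] {V : Type*} [AddCommGroup V] (s : α → V) (v : V)
    (hs : ∀ y, s y = 0 ∨ s y = v) (T : Finset α) (hT : ∀ y, y ∈ T ↔ s y ≠ 0) (u : List α) :
    (u.map s).sum = (u.countP (fun y => y ∈ T)) • v := by
  induction u with
  | nil => simp
  | cons a u ih =>
    rw [List.map_cons, List.sum_cons, ih, List.countP_cons]
    by_cases ha : a ∈ T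
    · have hv : s a = v := by
        rcases hs a with h | h
        · exact absurd h ((hT a).1 ha)
        · exact h
      simp [ha, hv, add_smul, add_comm]
    · have h0 : s a = 0 := by
        by_contra h
        exact ha ((hT a).2 h)
      simp [ha, h0]

/-- The counter of a clock with weights `0` and `v` is a unit counter. -/
theorem unitgrp_nclock [DecidableEq α] {V : Type*} [AddCommGroup V] (s : α → V) (v : V)
    (hs : ∀ y, s y = 0 ∨ s y = v) (T : Finset α) (hT : ∀ y, y ∈ T ↔ s y ≠ 0) (k : ℕ)
    (hk : ∀ n n' : ℕ, n • v = n' • v ↔ n ≡ n' [MOD k]) (x : α) (r : ℕ) (w : List α) :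
    nclock s x (r • v) w = unitCount T x k r w := by
  unfold nclock unitCount
  rw [Finset.card_filter]
  apply Finset.sum_congr rfl
  intro i _
  rw [unitgrp_sum s v hs T hT, hk]
  by_cases h : w[i]? = some x ∧ (w.take i).countP (fun y => y ∈ T) ≡ r [MOD k]
  · rw [if_pos h, if_pos h]
  · rw [if_neg h, if_neg h]

/-- **Abelian normal subgroup, all letters in two cosets.** -/
theorem hasGSH_group_unitGen [Fintype α] {G : Type*} [Group G] [Fintype G] {V : Type*}
    [AddCommGroup V] [Fintype V] (π : G →* Multiplicative V)
    (hab : ∀ a b : G, π a = 1 → π b = 1 → a * b = b * a) (φ : α → G) (t : G)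
    (hφ : ∀ y, π (φ y) = 1 ∨ π (φ y) = π t) (S : Set G) :
    HasGSH ({w | (w.map φ).prod ∈ S} : Language α) 1 := by
  classical
  refine hasGSH_group_of_nclock (Fintype.card V) Fintype.card_pos
    (fun v => card_nsmul_eq_zero) π hab φ ?_ S
  intro x c m hm r
  have hs : ∀ y, Multiplicative.toAdd (π (φ y)) = 0 ∨
      Multiplicative.toAdd (π (φ y)) = Multiplicative.toAdd (π t) := by
    intro y
    rcases hφ y with h | h
    · left
      rw [h]
      rfl
    · right
      rw [h]
  obtain ⟨T, hT⟩ : ∃ T : Finset α, ∀ y, y ∈ T ↔ Multiplicative.toAdd (π (φ y)) ≠ 0 :=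
    ⟨Finset.univ.filter (fun y => Multiplicative.toAdd (π (φ y)) ≠ 0), fun y => by simp⟩
  have hk : 0 < addOrderOf (Multiplicative.toAdd (π t)) := addOrderOf_pos _
  by_cases hc : ∃ r0 : ℕ, r0 • Multiplicative.toAdd (π t) = c
  · obtain ⟨r0, rfl⟩ := hc
    refine (hasGSH_unitCount_full T x (addOrderOf (Multiplicative.toAdd (π t))) m hk hm
      r0 r).of_eq ?_
    ext w
    change unitCount T x (addOrderOf (Multiplicative.toAdd (π t))) r0 w ≡ r [MOD m] ↔
      nclock (fun a => Multiplicative.toAdd (π (φ a))) x
        (r0 • Multiplicative.toAdd (π t)) w ≡ r [MOD m]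
    rw [unitgrp_nclock _ _ hs T hT (addOrderOf (Multiplicative.toAdd (π t)))
      (fun n n' => nsmul_eq_nsmul_iff_modEq) x r0 w]
  · have h0 : ∀ w : List α, nclock (fun a => Multiplicative.toAdd (π (φ a))) x c w = 0 := by
      intro w
      unfold nclock
      apply Finset.sum_eq_zero
      intro i _
      rw [if_neg]
      rintro ⟨-, h2⟩
      rw [unitgrp_sum _ _ hs T hT] at h2
      exact hc ⟨_, h2⟩
    refine (hasGSH_const (0 ≡ r [MOD m]) 1).of_eq ?_
    ext w
    change 0 ≡ r [MOD m] ↔
      nclock (fun a => Multiplicative.toAdd (π (φ a))) x c w ≡ r [MOD m]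
    rw [h0]

end Vale.Agent.H72
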